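import Vale.Agent.Lib.P072.Final

namespace Vale.Agent.Results.P072.SeparatedLines

open Vale.Agent.Lib.P072

/-- The permanence conjecture holds for every weakly reversible network (any number of species and
of linkage classes) in which every linkage class lies on a line and the directions of these lines
are pairwise parallel or disjointly supported. -/
theorem result (d : ℕ) (N : Network d) (k : (Fin d → ℕ) × (Fin d → ℕ) → ℝ)
    (hWR : N.WeaklyReversible) (hk : ∀ r ∈ N.R, 0 < k r) (hL : N.HasSeparatedLines)
    (c : Fin d → ℝ) (hc : ∀ i, 0 < c i) : N.PermanentOn k c :=
  permanent_of_separatedLines N k hWR hk hL c hc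

end Vale.Agent.Results.P072.SeparatedLines
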